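import Mathlib

/-!
Towers of fragments for a family of weighted sets and a level function.
-/

namespace Vale.Agent.P034

open Finset

set_option linter.unusedSectionVars false

variable {X : Type} [Fintype X] [DecidableEq X]

/-- heavy elements at level `i` -/
noncomputable def hv (w : Finset X → X → ℝ) (H : Finset X) (e : ℕ → ℝ) (i : ℕ) : Finset X :=
  H.filter (fun x => e i < w H x)

open Classical in
/-- elements moved down at some level `≤ i` -/
noncomputable def nw (w : Finset X → X → ℝ) (τ : X → ℕ) (H : Finset X) (e : ℕ → ℝ) (i : ℕ) :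
    Finset X :=
  H.filter (fun x => ∃ l, l ≤ i ∧ e l < w H x ∧ l < τ x)

open Classical in
/-- the lowered level function -/
noncomputable def low (w : Finset X → X → ℝ) (τ : X → ℕ) (H : Finset X) (e : ℕ → ℝ) (x : X) : ℕ :=
  if h : x ∈ H ∧ ∃ l, e l < w H x ∧ l < τ x then Nat.find h.2 else τ x

/-- elements whose level went down to a level `≤ i` -/
def dl (τ τ' : X → ℕ) (i : ℕ) : Finset X :=
  univ.filter (fun x => τ' x < τ x ∧ τ' x ≤ i)

/-- elements whose level went down -/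
def dd (τ τ' : X → ℕ) : Finset X :=
  univ.filter (fun x => τ' x < τ x)

structure Adm (w : Finset X → X → ℝ) (F : Finset (Finset X)) (L : ℕ) (τ : X → ℕ)
    (H : Finset X) (e : ℕ → ℝ) : Prop where
  mem : H ∈ F
  anti : Antitone e
  nonneg : ∀ i, 0 ≤ e i
  pos : ∀ i < L, 0 ≤ ∑ x ∈ H, min (w H x) (e i) *
    ((1 / 2 : ℝ) ^ i - if (i < τ x ∨ x ∈ nw w τ H e i) then 1 else 0)

structure Cert (w : Finset X → X → ℝ) (F : Finset (Finset X)) (L : ℕ) (τ' : X → ℕ) (s : ℕ → ℕ)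
    (H : Finset X) (e : ℕ → ℝ) : Prop where
  mem : H ∈ F
  anti : Antitone e
  nonneg : ∀ i, 0 ≤ e i
  sub : ∀ i < L, ∀ x ∈ hv w H e i, τ' x ≤ i
  marg : ∀ i < L, (s i : ℝ) * e i ≤ ∑ x ∈ H, min (w H x) (e i) *
    ((1 / 2 : ℝ) ^ i - if i < τ' x then 1 else 0)
  size : ∀ i < L, (hv w H e i).card ≤ 2 ^ i * s i

def Good (w : Finset X → X → ℝ) (F : Finset (Finset X)) (L : ℕ) (τ : X → ℕ) : Prop :=
  ∃ H ∈ F, ∀ i < L, ∑ x ∈ H.filter (fun x => i < τ x), w H x ≤ (1 / 2 : ℝ) ^ i * ∑ x ∈ H, w H x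

def Rel (w : Finset X → X → ℝ) (F : Finset (Finset X)) (L : ℕ) (τ τ' : X → ℕ) : Prop :=
  ∃ H e, Adm w F L τ H e ∧ (∀ i < L, (hv w H e i).card ≤ 2 ^ i * (nw w τ H e i).card) ∧
    (∀ H' e', Adm w F L τ H' e' → (∀ i < L, nw w τ H' e' i ⊆ nw w τ H e i) →
      ∀ i < L, nw w τ H e i ⊆ nw w τ H' e' i) ∧ τ' = low w τ H e

variable {w : Finset X → X → ℝ} {F : Finset (Finset X)} {L : ℕ} {τ τ' : X → ℕ}
  {H : Finset X} {e : ℕ → ℝ}

lemma filter_mem_of_sub {A B : Finset X} (h : A ⊆ B) : B.filter (fun x => x ∈ A) = A := by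
  ext x
  simp only [mem_filter]
  exact ⟨fun hx => hx.2, fun hx => ⟨h hx, hx⟩⟩

lemma mem_hv {i : ℕ} {x : X} : x ∈ hv w H e i ↔ x ∈ H ∧ e i < w H x := by
  simp [hv]

lemma mem_nw {i : ℕ} {x : X} :
    x ∈ nw w τ H e i ↔ x ∈ H ∧ ∃ l, l ≤ i ∧ e l < w H x ∧ l < τ x := by
  simp [nw]

lemma mem_dl {i : ℕ} {x : X} : x ∈ dl τ τ' i ↔ τ' x < τ x ∧ τ' x ≤ i := by
  simp [dl]

lemma mem_dd {x : X} : x ∈ dd τ τ' ↔ τ' x < τ x := by
  simp [dd]

lemma low_le (x : X) : low w τ H e x ≤ τ x := by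
  unfold low
  split_ifs with h
  · exact (Nat.find_spec h.2).2.le
  · exact le_rfl

lemma nw_eq_dl (i : ℕ) : nw w τ H e i = dl τ (low w τ H e) i := by
  ext x
  rw [mem_nw, mem_dl]
  unfold low
  split_ifs with h
  · constructor
    · rintro ⟨_, l, hl, h1, h2⟩
      exact ⟨(Nat.find_spec h.2).2, (Nat.find_min' h.2 ⟨h1, h2⟩).trans hl⟩
    · rintro ⟨_, h2⟩
      exact ⟨h.1, Nat.find h.2, h2, Nat.find_spec h.2⟩
  · constructor
    · rintro ⟨hx, l, _, h1, h2⟩
      exact absurd ⟨hx, l, h1, h2⟩ h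
    · rintro ⟨h1, _⟩
      exact absurd h1 (lt_irrefl _)

lemma nw_sub_hv (he : Antitone e) (i : ℕ) : nw w τ H e i ⊆ hv w H e i := by
  intro x hx
  rw [mem_nw] at hx
  obtain ⟨hx, l, hl, h1, _⟩ := hx
  exact mem_hv.2 ⟨hx, lt_of_le_of_lt (he hl) h1⟩

lemma nw_mono {i j : ℕ} (h : i ≤ j) : nw w τ H e i ⊆ nw w τ H e j := by
  intro x hx
  rw [mem_nw] at hx ⊢
  obtain ⟨hx, l, hl, h1, h2⟩ := hx
  exact ⟨hx, l, hl.trans h, h1, h2⟩

lemma nw_anti {e' : ℕ → ℝ} (h : ∀ l, e l ≤ e' l) (i : ℕ) : nw w τ H e' i ⊆ nw w τ H e i := by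
  intro x hx
  rw [mem_nw] at hx ⊢
  obtain ⟨hx, l, hl, h1, h2⟩ := hx
  exact ⟨hx, l, hl, lt_of_le_of_lt (h l) h1, h2⟩

lemma low_le_of_hv {i : ℕ} {x : X} (hx : x ∈ hv w H e i) : low w τ H e x ≤ i := by
  by_cases h : i < τ x
  · have : x ∈ nw w τ H e i := mem_nw.2 ⟨(mem_hv.1 hx).1, i, le_rfl, (mem_hv.1 hx).2, h⟩
    rw [nw_eq_dl, mem_dl] at this
    exact this.2
  · exact (low_le x).trans (not_lt.1 h)

lemma cert_of_adm (ha : Adm w F L τ H e)
    (hs : ∀ i < L, (hv w H e i).card ≤ 2 ^ i * (nw w τ H e i).card) {s : ℕ → ℕ}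
    (hsi : ∀ i < L, s i = (nw w τ H e i).card) :
    Cert w F L (low w τ H e) s H e := by
  refine ⟨ha.mem, ha.anti, ha.nonneg, fun i _ x hx => low_le_of_hv hx, fun i hi => ?_,
    fun i hi => by rw [hsi i hi]; exact hs i hi⟩
  have h1 := ha.pos i hi
  have h2 : (s i : ℝ) * e i = ∑ x ∈ H, (if x ∈ nw w τ H e i then e i else 0) := by
    rw [hsi i hi, ← Finset.sum_filter, Finset.sum_const, nsmul_eq_mul,
      filter_mem_of_sub (fun x hx => (mem_nw.1 hx).1)]
  rw [h2]
  have h3 : ∑ x ∈ H, min (w H x) (e i) * ((1 / 2 : ℝ) ^ i - if i < low w τ H e x then 1 else 0)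
      = ∑ x ∈ H, min (w H x) (e i) *
        ((1 / 2 : ℝ) ^ i - if (i < τ x ∨ x ∈ nw w τ H e i) then 1 else 0)
        + ∑ x ∈ H, (if x ∈ nw w τ H e i then e i else 0) := by
    rw [← Finset.sum_add_distrib]
    refine Finset.sum_congr rfl (fun x _ => ?_)
    by_cases hx : x ∈ nw w τ H e i
    · have hx2 := nw_sub_hv ha.anti i hx
      have h4 : ¬ i < low w τ H e x := not_lt.2 (low_le_of_hv hx2)
      rw [min_eq_right (mem_hv.1 hx2).2.le]
      simp only [hx, h4, or_true, if_true, if_false]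
      ring
    · have h4 : (i < low w τ H e x) ↔ i < τ x := by
        constructor
        · intro h; exact lt_of_lt_of_le h (low_le x)
        · intro h
          by_contra h5
          apply hx
          rw [nw_eq_dl, mem_dl]
          exact ⟨lt_of_le_of_lt (not_lt.1 h5) h, not_lt.1 h5⟩
      simp only [hx, h4, or_false, if_false, add_zero]
  linarith

lemma adm_of_cert (hw : ∀ H x, 0 ≤ w H x) {s : ℕ → ℕ} (hc : Cert w F L τ' s H e)
    (hsi : ∀ i < L, s i = (dl τ τ' i).card) :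
    Adm w F L τ H e ∧ ∀ i < L, nw w τ H e i ⊆ dl τ τ' i := by
  have hsub : ∀ i < L, nw w τ H e i ⊆ dl τ τ' i := by
    intro i hi x hx
    obtain ⟨hx, l, hl, h1, h2⟩ := mem_nw.1 hx
    have := hc.sub l (lt_of_le_of_lt hl hi) x (mem_hv.2 ⟨hx, h1⟩)
    exact mem_dl.2 ⟨lt_of_le_of_lt this h2, this.trans hl⟩
  refine ⟨⟨hc.mem, hc.anti, hc.nonneg, fun i hi => ?_⟩, hsub⟩
  have h1 := hc.marg i hi
  have h2 : ∑ x ∈ H, (if x ∈ dl τ τ' i then e i else 0) ≤ (s i : ℝ) * e i := by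
    rw [hsi i hi, ← Finset.sum_filter, Finset.sum_const, nsmul_eq_mul]
    refine mul_le_mul_of_nonneg_right ?_ (hc.nonneg i)
    exact_mod_cast Finset.card_le_card (fun x hx => (mem_filter.1 hx).2)
  have h3 : ∑ x ∈ H, min (w H x) (e i) * ((1 / 2 : ℝ) ^ i - if i < τ' x then 1 else 0)
      ≤ ∑ x ∈ H, min (w H x) (e i) *
        ((1 / 2 : ℝ) ^ i - if (i < τ x ∨ x ∈ nw w τ H e i) then 1 else 0)
        + ∑ x ∈ H, (if x ∈ dl τ τ' i then e i else 0) := by
    rw [← Finset.sum_add_distrib]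
    refine Finset.sum_le_sum (fun x _ => ?_)
    have hm0 : 0 ≤ min (w H x) (e i) := le_min (hw H x) (hc.nonneg i)
    have hm1 : min (w H x) (e i) ≤ e i := min_le_right _ _
    by_cases hx : x ∈ dl τ τ' i
    · have h4 : ¬ i < τ' x := not_lt.2 (mem_dl.1 hx).2
      simp only [hx, h4, if_true, if_false]
      split_ifs <;> nlinarith
    · simp only [hx, if_false, add_zero]
      have h5 : x ∉ nw w τ H e i := fun h => hx (hsub i hi h)
      simp only [h5, or_false]
      by_cases h6 : i < τ x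
      · have h7 : i < τ' x := by
          by_contra h8
          exact hx (mem_dl.2 ⟨lt_of_le_of_lt (not_lt.1 h8) h6, not_lt.1 h8⟩)
        simp only [h6, h7, if_true, le_refl]
      · simp only [h6, if_false]
        split_ifs <;> nlinarith
  linarith

lemma exists_lex_min {α : Type} (P : α → Prop) (f g : α → ℕ) (h : ∃ a, P a) :
    ∃ a, P a ∧ (∀ b, P b → f a ≤ f b) ∧ ∀ b, P b → f b ≤ f a → g a ≤ g b := by
  classical
  have h1 : ∃ m, ∃ a, P a ∧ f a = m := by
    obtain ⟨a, ha⟩ := h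
    exact ⟨_, a, ha, rfl⟩
  have h2 : ∃ k, ∃ a, P a ∧ f a = Nat.find h1 ∧ g a = k := by
    obtain ⟨a, ha, hm⟩ := Nat.find_spec h1
    exact ⟨_, a, ha, hm, rfl⟩
  obtain ⟨a, ha, hm, hk⟩ := Nat.find_spec h2
  have h3 : ∀ b, P b → f a ≤ f b := fun b hb => hm ▸ Nat.find_min' h1 ⟨b, hb, rfl⟩
  refine ⟨a, ha, h3, fun b hb hba => ?_⟩
  rw [hk]
  exact Nat.find_min' h2 ⟨b, hb, by rw [← hm]; exact le_antisymm hba (h3 b hb), rfl⟩

/-- raising one threshold -/
lemma improve (hw : ∀ H x, 0 ≤ w H x) (ha : Adm w F L τ H e)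
    (hbad : ∃ i, i < L ∧ 2 ^ i * (nw w τ H e i).card < (hv w H e i).card) :
    ∃ e', Adm w F L τ H e' ∧ (∀ l, e l ≤ e' l) ∧
      ∑ i ∈ range L, (hv w H e' i).card < ∑ i ∈ range L, (hv w H e i).card := by
  classical
  set i := Nat.find hbad with hi
  obtain ⟨hiL, hlt⟩ : i < L ∧ 2 ^ i * (nw w τ H e i).card < (hv w H e i).card :=
    Nat.find_spec hbad
  have hne : (hv w H e i).Nonempty := Finset.card_pos.1 (lt_of_le_of_lt (Nat.zero_le _) hlt)
  obtain ⟨x0, hx0, hmin⟩ := Finset.exists_min_image (hv w H e i) (w H) hne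
  set m := w H x0 with hm
  have hem : e i < m := (mem_hv.1 hx0).2
  have hprev : ∀ l < i, m ≤ e l := by
    intro l hl
    have h1 : ¬ (l < L ∧ 2 ^ l * (nw w τ H e l).card < (hv w H e l).card) := Nat.find_min hbad hl
    have h2 : (hv w H e l).card ≤ 2 ^ l * (nw w τ H e l).card := by
      by_contra h3
      exact h1 ⟨hl.trans hiL, not_le.1 h3⟩
    have h3 : 2 ^ l * (nw w τ H e l).card ≤ 2 ^ i * (nw w τ H e i).card :=
      Nat.mul_le_mul (Nat.pow_le_pow_right (by norm_num) hl.le)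
        (Finset.card_le_card (nw_mono hl.le))
    have h4 : (hv w H e l).card < (hv w H e i).card := by omega
    obtain ⟨x, hx, hx'⟩ := Finset.exists_mem_notMem_of_card_lt_card h4
    have h5 : ¬ e l < w H x := fun h => hx' (mem_hv.2 ⟨(mem_hv.1 hx).1, h⟩)
    exact (hmin x hx).trans (not_lt.1 h5)
  have hle : ∀ l, e l ≤ Function.update e i m l := by
    intro l
    by_cases hl : l = i
    · subst hl; simp [hem.le]
    · simp [Function.update_of_ne hl]
  refine ⟨Function.update e i m, ⟨ha.mem, ?_, fun l => (ha.nonneg l).trans (hle l), ?_⟩, hle, ?_⟩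
  · intro a b hab
    by_cases hb : b = i
    · subst hb
      by_cases hA : a = i
      · rw [hA]
      · rw [Function.update_self, Function.update_of_ne hA]
        exact hprev a (lt_of_le_of_ne hab hA)
    · rw [Function.update_of_ne hb]
      exact (ha.anti hab).trans (hle a)
  · intro l hl
    have hsub := nw_anti (w := w) (τ := τ) (H := H) hle l
    have step : ∑ x ∈ H, min (w H x) (Function.update e i m l) *
          ((1 / 2 : ℝ) ^ l - if (l < τ x ∨ x ∈ nw w τ H e l) then 1 else 0) ≤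
        ∑ x ∈ H, min (w H x) (Function.update e i m l) *
          ((1 / 2 : ℝ) ^ l -
            if (l < τ x ∨ x ∈ nw w τ H (Function.update e i m) l) then 1 else 0) := by
      refine Finset.sum_le_sum (fun x _ => ?_)
      refine mul_le_mul_of_nonneg_left ?_ (le_min (hw H x) ((ha.nonneg l).trans (hle l)))
      by_cases h1 : (l < τ x ∨ x ∈ nw w τ H (Function.update e i m) l)
      · have h2 : (l < τ x ∨ x ∈ nw w τ H e l) := h1.imp id (fun h => hsub h)
        simp only [h1, h2, if_true, le_refl]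
      · simp only [h1, if_false]
        split_ifs <;> linarith
    refine le_trans ?_ step
    by_cases hli : l = i
    · subst hli
      rw [Function.update_self]
      have h1 := ha.pos i hiL
      have h2 : ∑ x ∈ H, min (w H x) m *
            ((1 / 2 : ℝ) ^ i - if (i < τ x ∨ x ∈ nw w τ H e i) then 1 else 0) =
          ∑ x ∈ H, min (w H x) (e i) *
            ((1 / 2 : ℝ) ^ i - if (i < τ x ∨ x ∈ nw w τ H e i) then 1 else 0) +
          (m - e i) * (∑ x ∈ H, (if x ∈ hv w H e i then (1 / 2 : ℝ) ^ i else 0) -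
            ∑ x ∈ H, (if x ∈ nw w τ H e i then (1 : ℝ) else 0)) := by
        rw [← Finset.sum_sub_distrib, Finset.mul_sum, ← Finset.sum_add_distrib]
        refine Finset.sum_congr rfl (fun x hxH => ?_)
        by_cases hx : x ∈ hv w H e i
        · rw [min_eq_right (hmin x hx), min_eq_right (mem_hv.1 hx).2.le]
          have h3 : (i < τ x ∨ x ∈ nw w τ H e i) ↔ x ∈ nw w τ H e i :=
            ⟨fun h => h.elim (fun h => mem_nw.2 ⟨hxH, i, le_rfl, (mem_hv.1 hx).2, h⟩) id, Or.inr⟩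
          simp only [h3, hx, if_true]
          ring
        · have h3 : w H x ≤ e i := by
            by_contra h
            exact hx (mem_hv.2 ⟨hxH, not_le.1 h⟩)
          have h4 : x ∉ nw w τ H e i := fun h => hx (nw_sub_hv ha.anti i h)
          rw [min_eq_left h3, min_eq_left (h3.trans hem.le)]
          simp only [hx, h4, if_false]
          ring
      have h3 : ∑ x ∈ H, (if x ∈ hv w H e i then (1 / 2 : ℝ) ^ i else 0) =
          (hv w H e i).card * (1 / 2 : ℝ) ^ i := by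
        rw [← Finset.sum_filter, Finset.sum_const, nsmul_eq_mul,
          filter_mem_of_sub (fun x hx => (mem_hv.1 hx).1)]
      have h4 : ∑ x ∈ H, (if x ∈ nw w τ H e i then (1 : ℝ) else 0) =
          (nw w τ H e i).card := by
        rw [← Finset.sum_filter, Finset.sum_const, nsmul_eq_mul, mul_one,
          filter_mem_of_sub (fun x hx => (mem_nw.1 hx).1)]
      rw [h2, h3, h4]
      have h5 : (2 : ℝ) ^ i * (nw w τ H e i).card ≤ (hv w H e i).card := by
        exact_mod_cast hlt.le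
      have h6 : ((nw w τ H e i).card : ℝ) ≤ (hv w H e i).card * (1 / 2 : ℝ) ^ i := by
        have h7 : (2 : ℝ) ^ i * (1 / 2 : ℝ) ^ i = 1 := by rw [← mul_pow]; norm_num
        have h8 : (0 : ℝ) ≤ (1 / 2 : ℝ) ^ i := by positivity
        calc ((nw w τ H e i).card : ℝ) = ((2 : ℝ) ^ i * (nw w τ H e i).card) * (1 / 2 : ℝ) ^ i := by
              rw [mul_comm ((2 : ℝ) ^ i), mul_assoc, h7, mul_one]
          _ ≤ _ := mul_le_mul_of_nonneg_right h5 h8
      have h9 : 0 ≤ (m - e i) * ((hv w H e i).card * (1 / 2 : ℝ) ^ i - (nw w τ H e i).card) :=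
        mul_nonneg (by linarith) (by linarith)
      linarith
    · rw [Function.update_of_ne hli]
      exact ha.pos l hl
  · have hsub : ∀ l, hv w H (Function.update e i m) l ⊆ hv w H e l := by
      intro l x hx
      exact mem_hv.2 ⟨(mem_hv.1 hx).1, lt_of_le_of_lt (hle l) (mem_hv.1 hx).2⟩
    refine Finset.sum_lt_sum (fun l _ => Finset.card_le_card (hsub l))
      ⟨i, mem_range.2 hiL, Finset.card_lt_card ⟨hsub i, fun h => ?_⟩⟩
    have := (mem_hv.1 (h hx0)).2
    rw [Function.update_self] at this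
    exact lt_irrefl _ this

lemma exists_rel (hw : ∀ H x, 0 ≤ w H x) (hτ : ∀ x, τ x ≤ L) {S : Finset X} (hS : S ∈ F) :
    ∃ τ', Rel w F L τ τ' ∧ dd τ τ' ⊆ S := by
  classical
  have h0 : ∃ a : Finset X × (ℕ → ℝ), Adm w F L τ a.1 a.2 ∧ ∀ i < L, nw w τ a.1 a.2 i ⊆ S := by
    refine ⟨(S, fun _ => 0), ⟨hS, antitone_const, fun _ => le_rfl, fun i _ => ?_⟩,
      fun i _ x hx => (mem_nw.1 hx).1⟩
    refine Finset.sum_nonneg (fun x _ => ?_)
    rw [min_eq_right (hw S x), zero_mul]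
  obtain ⟨⟨H, e⟩, ⟨ha, hsub⟩, hmin1, hmin2⟩ := exists_lex_min _
    (fun a : Finset X × (ℕ → ℝ) => ∑ i ∈ range L, (nw w τ a.1 a.2 i).card)
    (fun a : Finset X × (ℕ → ℝ) => ∑ i ∈ range L, (hv w a.1 a.2 i).card) h0
  dsimp only at ha hsub hmin1 hmin2
  refine ⟨low w τ H e, ⟨H, e, ha, ?_, ?_, rfl⟩, ?_⟩
  · by_contra hcon
    push Not at hcon
    obtain ⟨e', ha', hle, hlt⟩ := improve hw ha hcon
    have h1 := hmin2 (H, e') ⟨ha', fun i hi => (nw_anti hle i).trans (hsub i hi)⟩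
      (Finset.sum_le_sum (fun i _ => Finset.card_le_card (nw_anti hle i)))
    exact absurd hlt (not_lt.2 h1)
  · intro H' e' ha' hs i hi
    have h1 := hmin1 (H', e') ⟨ha', fun i hi => (hs i hi).trans (hsub i hi)⟩
    dsimp only at h1
    have h2 : ∀ j ∈ range L, (nw w τ H' e' j).card ≤ (nw w τ H e j).card :=
      fun j hj => Finset.card_le_card (hs j (mem_range.1 hj))
    have h3 := (Finset.sum_eq_sum_iff_of_le h2).1 (le_antisymm (Finset.sum_le_sum h2) h1) i
      (mem_range.2 hi)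
    rw [Finset.eq_of_subset_of_card_le (hs i hi) h3.ge]
  · intro x hx
    rw [mem_dd] at hx
    refine hsub (low w τ H e x) (lt_of_lt_of_le hx (hτ x)) ?_
    rw [nw_eq_dl, mem_dl]
    exact ⟨hx, le_rfl⟩

lemma rel_le (h : Rel w F L τ τ') (x : X) : τ' x ≤ τ x := by
  obtain ⟨H, e, _, _, _, rfl⟩ := h
  exact low_le x

lemma rel_nonempty (h : Rel w F L τ τ') (hb : ¬ Good w F L τ) : (dd τ τ').Nonempty := by
  obtain ⟨H, e, ha, hs, _, rfl⟩ := h
  by_contra hne
  rw [Finset.not_nonempty_iff_eq_empty] at hne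
  apply hb
  refine ⟨H, ha.mem, fun i hi => ?_⟩
  have h1 : nw w τ H e i = ∅ := by
    rw [nw_eq_dl, Finset.eq_empty_iff_forall_notMem]
    intro x hx
    have : x ∈ dd τ (low w τ H e) := mem_dd.2 (mem_dl.1 hx).1
    rw [hne] at this
    exact absurd this (Finset.notMem_empty x)
  have h2 : hv w H e i = ∅ := by
    have := hs i hi
    rw [h1] at this
    simpa using this
  have h3 := ha.pos i hi
  have h4 : ∑ x ∈ H, min (w H x) (e i) *
      ((1 / 2 : ℝ) ^ i - if (i < τ x ∨ x ∈ nw w τ H e i) then 1 else 0) =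
      (1 / 2 : ℝ) ^ i * ∑ x ∈ H, w H x - ∑ x ∈ H.filter (fun x => i < τ x), w H x := by
    rw [Finset.sum_filter, Finset.mul_sum, ← Finset.sum_sub_distrib]
    refine Finset.sum_congr rfl (fun x hx => ?_)
    have h5 : w H x ≤ e i := by
      by_contra h
      have : x ∈ hv w H e i := mem_hv.2 ⟨hx, not_le.1 h⟩
      rw [h2] at this
      exact absurd this (Finset.notMem_empty x)
    rw [min_eq_left h5, h1]
    simp only [Finset.notMem_empty, or_false]
    split_ifs <;> ring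
  linarith

lemma decode (hw : ∀ H x, 0 ≤ w H x) (τ' : X → ℕ) (s : ℕ → ℕ) :
    ∃ V : ℕ → Finset X, (∀ i < L, (V i).card ≤ 2 ^ i * s i) ∧
      ∀ τ, Rel w F L τ τ' → (∀ i < L, s i = (dl τ τ' i).card) → ∀ i < L, dl τ τ' i ⊆ V i := by
  by_cases h : ∃ H e, Cert w F L τ' s H e
  · obtain ⟨H', e', hc⟩ := h
    refine ⟨hv w H' e', hc.size, fun τ hr hs i hi => ?_⟩
    obtain ⟨ha', hsub⟩ := adm_of_cert (τ := τ) hw hc hs
    obtain ⟨H, e, _, _, hmin, rfl⟩ := hr
    rw [← nw_eq_dl]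
    refine (hmin H' e' ha' (fun j hj => ?_) i hi).trans (nw_sub_hv hc.anti i)
    rw [nw_eq_dl (H := H)]
    exact hsub j hj
  · refine ⟨fun _ => ∅, fun i _ => by simp, fun τ hr hs => ?_⟩
    exfalso
    apply h
    obtain ⟨H, e, ha, hsz, _, rfl⟩ := hr
    exact ⟨H, e, cert_of_adm ha hsz (fun i hi => by rw [hs i hi, nw_eq_dl])⟩

end Vale.Agent.P034
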