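import Mathlib
import Vale.Agent.P034.Tower

/-!
Counting fragments: the expected cost of the cover built from towers is small.
-/

namespace Vale.Agent.P034

open Finset

set_option linter.unusedSectionVars false

variable {X : Type} [Fintype X] [DecidableEq X]

lemma geom_half_le (n : ℕ) : ∑ i ∈ range n, (1 / 2 : ℝ) ^ i ≤ 2 := by
  have := sum_geometric_two_le n
  simpa using this

lemma geom_le_of_le_half {b : ℝ} (h0 : 0 ≤ b) (h1 : b ≤ 1 / 2) (n : ℕ) :
    ∑ k ∈ range n, b ^ k ≤ 1 + 2 * b := by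
  have h : ∀ n : ℕ, ∑ k ∈ range (n + 1), b ^ k ≤ 1 + 2 * b - 2 * b ^ (n + 1) := by
    intro n
    induction n with
    | zero => simp
    | succ n ih =>
      rw [Finset.sum_range_succ]
      have h2 : 0 ≤ b ^ (n + 1) := by positivity
      have h3 : b ^ (n + 1 + 1) = b ^ (n + 1) * b := pow_succ _ _
      nlinarith
  cases n with
  | zero => simp; linarith
  | succ n =>
    have h2 : 0 ≤ b ^ (n + 1) := by positivity
    linarith [h n]

/-- profile of a set -/
def prof (L : ℕ) (τ' : X → ℕ) (T : Finset X) : Fin L → ℕ :=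
  fun i => (T.filter (fun x => τ' x = i)).card

lemma prod_prof {L : ℕ} {τ' : X → ℕ} {T : Finset X} (hT : ∀ x ∈ T, τ' x < L) (f : ℕ → ℝ) :
    ∏ x ∈ T, f (τ' x) = ∏ i : Fin L, f i ^ prof L τ' T i := by
  rw [← Finset.prod_fiberwise_of_maps_to (s := T) (t := range L) (g := τ')
    (fun x hx => mem_range.2 (hT x hx)), Finset.prod_range]
  refine Finset.prod_congr rfl (fun i _ => ?_)
  rw [Finset.prod_congr rfl (g := fun _ => f i) (fun x hx => by rw [(mem_filter.1 hx).2]),
    Finset.prod_const]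
  rfl

lemma card_le_level {L : ℕ} {τ' : X → ℕ} {T T' : Finset X}
    (h : prof L τ' T = prof L τ' T') {i : ℕ} (hi : i < L) :
    (T.filter (fun x => τ' x ≤ i)).card = (T'.filter (fun x => τ' x ≤ i)).card := by
  have key : ∀ A : Finset X, (A.filter (fun x => τ' x ≤ i)).card =
      ∑ l ∈ range (i + 1), (A.filter (fun x => τ' x = l)).card := by
    intro A
    rw [Finset.card_eq_sum_card_fiberwise (f := τ') (t := range (i + 1))
      (fun x hx => by
        have := (mem_filter.1 (mem_coe.1 hx)).2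
        exact mem_coe.2 (mem_range.2 (by omega)))]
    refine Finset.sum_congr rfl (fun l hl => ?_)
    rw [Finset.filter_filter]
    congr 1
    refine Finset.filter_congr (fun x _ => ?_)
    have := mem_range.1 hl
    constructor
    · exact fun h => h.2
    · intro h; exact ⟨by omega, h⟩
  rw [key, key]
  refine Finset.sum_congr rfl (fun l hl => ?_)
  have := mem_range.1 hl
  exact congrFun h ⟨l, by omega⟩

/-- the abstract counting lemma -/
lemma count_fragments {L : ℕ} (τ' : X → ℕ) (C : Finset (Finset X))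
    (hne : ∀ T ∈ C, T.Nonempty) (hlev : ∀ T ∈ C, ∀ x ∈ T, τ' x < L)
    (hdec : ∀ s : ℕ → ℕ, ∃ V : ℕ → Finset X, (∀ i < L, (V i).card ≤ 2 ^ i * s i) ∧
      ∀ T ∈ C, (∀ i < L, s i = (T.filter (fun x => τ' x ≤ i)).card) →
        ∀ x ∈ T, x ∈ V (τ' x)) :
    ∑ T ∈ C, ∏ x ∈ T, ((1 / 8 : ℝ) ^ (τ' x) / 120) ≤ 2 / 9 := by
  classical
  set y : ℕ → ℝ := fun i => (1 / 4 : ℝ) ^ i / 2 with hy
  set b : ℕ → ℝ := fun i => (1 / 2 : ℝ) ^ i / 20 with hb
  have hy0 : ∀ i, 0 ≤ y i := fun i => by simp only [hy]; positivity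
  have hb0 : ∀ i, 0 ≤ b i := fun i => by simp only [hb]; positivity
  set N := Fintype.card X + 1 with hN
  set P : Finset (Fin L → ℕ) := (Fintype.piFinset (fun _ : Fin L => range N)).erase 0 with hP
  have hmaps : ∀ T ∈ C, prof L τ' T ∈ P := by
    intro T hT
    rw [hP, mem_erase]
    constructor
    · intro h0
      obtain ⟨x, hx⟩ := hne T hT
      have h1 := congrFun h0 ⟨τ' x, hlev T hT x hx⟩
      simp only [prof, Pi.zero_apply, Finset.card_eq_zero] at h1
      have : x ∈ T.filter (fun z => τ' z = τ' x) := mem_filter.2 ⟨hx, rfl⟩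
      rw [h1] at this
      exact absurd this (Finset.notMem_empty x)
    · rw [Fintype.mem_piFinset]
      intro i
      exact mem_range.2 (Nat.lt_succ_of_le (Finset.card_le_univ _))
  rw [← Finset.sum_fiberwise_of_maps_to hmaps]
  have hfib : ∀ n ∈ P, ∑ T ∈ C.filter (fun T => prof L τ' T = n),
      ∏ x ∈ T, ((1 / 8 : ℝ) ^ (τ' x) / 120) ≤ ∏ i : Fin L, b i ^ n i := by
    intro n _
    rcases (C.filter (fun T => prof L τ' T = n)).eq_empty_or_nonempty with h0 | ⟨T0, hT0⟩
    · rw [h0, Finset.sum_empty]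
      exact Finset.prod_nonneg (fun i _ => pow_nonneg (hb0 i) _)
    obtain ⟨hT0C, hT0n⟩ := mem_filter.1 hT0
    obtain ⟨V, hV, hVT⟩ := hdec (fun i => (T0.filter (fun x => τ' x ≤ i)).card)
    set t := T0.card with ht
    set W : Finset X := univ.filter (fun x => τ' x < L ∧ x ∈ V (τ' x)) with hW
    have hterm : ∀ T ∈ C.filter (fun T => prof L τ' T = n),
        ∏ x ∈ T, ((1 / 8 : ℝ) ^ (τ' x) / 120) =
          (∏ x ∈ T, y (τ' x)) * ((1 / 3 : ℝ) ^ t * ∏ i : Fin L, b i ^ n i) := by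
      intro T hT
      obtain ⟨hTC, hTn⟩ := mem_filter.1 hT
      have h1 : ∏ x ∈ T, b (τ' x) = ∏ i : Fin L, b i ^ n i := by
        rw [prod_prof (hlev T hTC) b, hTn]
      have h2 : ∏ x ∈ T, (1 / 3 : ℝ) = (1 / 3 : ℝ) ^ t := by
        rw [prod_prof (hlev T hTC) (fun _ => (1 / 3 : ℝ)), hTn, ← hT0n,
          ← prod_prof (hlev T0 hT0C) (fun _ => (1 / 3 : ℝ)), Finset.prod_const]
      rw [← h1, ← h2, ← Finset.prod_mul_distrib, ← Finset.prod_mul_distrib]
      refine Finset.prod_congr rfl (fun x _ => ?_)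
      simp only [hy, hb]
      have : (1 / 8 : ℝ) ^ (τ' x) = (1 / 4 : ℝ) ^ (τ' x) * (1 / 2 : ℝ) ^ (τ' x) := by
        rw [← mul_pow]; norm_num
      rw [this]; ring
    rw [Finset.sum_congr rfl hterm, ← Finset.sum_mul]
    have hsubW : C.filter (fun T => prof L τ' T = n) ⊆ W.powerset := by
      intro T hT
      obtain ⟨hTC, hTn⟩ := mem_filter.1 hT
      rw [mem_powerset]
      intro x hx
      refine mem_filter.2 ⟨mem_univ _, hlev T hTC x hx, hVT T hTC (fun i hi => ?_) x hx⟩
      exact card_le_level (hT0n.trans hTn.symm) hi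
    have h3 : ∑ T ∈ C.filter (fun T => prof L τ' T = n), ∏ x ∈ T, y (τ' x) ≤
        ∏ x ∈ W, (1 + y (τ' x)) := by
      rw [Finset.prod_one_add]
      exact Finset.sum_le_sum_of_subset_of_nonneg hsubW
        (fun T _ _ => Finset.prod_nonneg (fun x _ => hy0 _))
    have h4 : ∏ x ∈ W, (1 + y (τ' x)) ≤ Real.exp (∑ x ∈ W, y (τ' x)) := by
      rw [Real.exp_sum]
      refine Finset.prod_le_prod (fun x _ => by linarith [hy0 (τ' x)]) (fun x _ => ?_)
      linarith [Real.add_one_le_exp (y (τ' x))]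
    have h5 : ∑ x ∈ W, y (τ' x) ≤ t := by
      rw [← Finset.sum_fiberwise_of_maps_to (s := W) (t := range L) (g := τ')
        (fun x hx => mem_range.2 (mem_filter.1 hx).2.1)]
      have h6 : ∀ i ∈ range L, ∑ x ∈ W.filter (fun x => τ' x = i), y (τ' x) ≤
          (t : ℝ) / 2 * (1 / 2 : ℝ) ^ i := by
        intro i hi
        rw [Finset.sum_congr rfl (g := fun _ => y i) (fun x hx => by rw [(mem_filter.1 hx).2]),
          Finset.sum_const, nsmul_eq_mul]
        have h7 : (W.filter (fun x => τ' x = i)).card ≤ 2 ^ i * t := by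
          refine le_trans (Finset.card_le_card (t := V i) (fun x hx => ?_))
            ((hV i (mem_range.1 hi)).trans (Nat.mul_le_mul_left _ (Finset.card_filter_le _ _)))
          obtain ⟨h8, h9⟩ := mem_filter.1 hx
          rw [← h9]
          exact (mem_filter.1 h8).2.2
        have h8 : ((W.filter (fun x => τ' x = i)).card : ℝ) ≤ 2 ^ i * t := by exact_mod_cast h7
        refine (mul_le_mul_of_nonneg_right h8 (hy0 i)).trans (le_of_eq ?_)
        simp only [hy]
        have : (1 / 2 : ℝ) ^ i = 2 ^ i * (1 / 4 : ℝ) ^ i := by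
          rw [← mul_pow]; norm_num
        rw [this]; ring
      refine (Finset.sum_le_sum h6).trans ?_
      rw [← Finset.mul_sum]
      have h9 := geom_half_le L
      have h10 : (0 : ℝ) ≤ (t : ℝ) / 2 := by positivity
      nlinarith
    have h6 : Real.exp (t : ℝ) ≤ 3 ^ t := by
      rw [← mul_one (t : ℝ), Real.exp_nat_mul]
      exact pow_le_pow_left₀ (Real.exp_pos _).le
        (le_trans Real.exp_one_lt_d9.le (by norm_num)) t
    have h7 : ∑ T ∈ C.filter (fun T => prof L τ' T = n), ∏ x ∈ T, y (τ' x) ≤ 3 ^ t :=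
      h3.trans (h4.trans ((Real.exp_le_exp.2 h5).trans h6))
    have h8 : 0 ≤ ∏ i : Fin L, b i ^ n i := Finset.prod_nonneg (fun i _ => pow_nonneg (hb0 i) _)
    have h9 : (3 : ℝ) ^ t * (1 / 3 : ℝ) ^ t = 1 := by rw [← mul_pow]; norm_num
    calc _ ≤ (3 : ℝ) ^ t * ((1 / 3 : ℝ) ^ t * ∏ i : Fin L, b i ^ n i) :=
          mul_le_mul_of_nonneg_right h7 (mul_nonneg (by positivity) h8)
      _ = _ := by rw [← mul_assoc, h9, one_mul]
  refine (Finset.sum_le_sum hfib).trans ?_
  have h0mem : (0 : Fin L → ℕ) ∈ Fintype.piFinset (fun _ : Fin L => range N) := by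
    rw [Fintype.mem_piFinset]
    intro i
    exact mem_range.2 (Nat.succ_pos _)
  have h1 := Finset.add_sum_erase _ (fun n : Fin L → ℕ => ∏ i : Fin L, b i ^ n i) h0mem
  rw [← Finset.prod_univ_sum (fun _ : Fin L => range N) (fun i k => b i ^ k)] at h1
  simp only [Pi.zero_apply, pow_zero, Finset.prod_const_one] at h1
  have h2 : ∏ i : Fin L, ∑ k ∈ range N, b i ^ k ≤ Real.exp (∑ i : Fin L, 2 * b i) := by
    rw [Real.exp_sum]
    refine Finset.prod_le_prod
      (fun i _ => Finset.sum_nonneg (fun k _ => pow_nonneg (hb0 i) _)) (fun i _ => ?_)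
    have h3 : b i ≤ 1 / 2 := by
      simp only [hb]
      have : (1 / 2 : ℝ) ^ (i : ℕ) ≤ 1 := pow_le_one₀ (by norm_num) (by norm_num)
      linarith
    linarith [geom_le_of_le_half (hb0 i) h3 N, Real.add_one_le_exp (2 * b i)]
  have h3 : ∑ i : Fin L, 2 * b i ≤ 1 / 5 := by
    rw [← Finset.sum_range (fun i => 2 * b i)]
    have h4 : ∑ i ∈ range L, 2 * b i = (1 / 10) * ∑ i ∈ range L, (1 / 2 : ℝ) ^ i := by
      rw [Finset.mul_sum]
      refine Finset.sum_congr rfl (fun i _ => ?_)
      simp only [hb]; ring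
    rw [h4]
    linarith [geom_half_le L]
  have h4 : Real.exp (1 / 5) ≤ 11 / 9 := by
    have := Real.exp_bound' (x := 1 / 5) (by norm_num) (by norm_num) (n := 3) (by norm_num)
    refine this.trans ?_
    simp [Finset.sum_range_succ, Nat.factorial]
    norm_num
  have h5 := h2.trans ((Real.exp_le_exp.2 h3).trans h4)
  linarith

end Vale.Agent.P034
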