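import Mathlib

/-!
Integral and fractional expectation thresholds of a family of subsets of a finite set.
-/

namespace Vale.Agent.P034

open Finset

variable {X : Type} [Fintype X] [DecidableEq X]

/-- `G` covers `F`: every member of `F` contains a member of `G`. -/
def Covers (G F : Finset (Finset X)) : Prop :=
  ∀ H ∈ F, ∃ S ∈ G, S ⊆ H

/-- `F` is `p`-small: some cover `G` has cost `∑_{S ∈ G} p^|S| ≤ 1/2`. -/
def IsSmall (F : Finset (Finset X)) (p : ℝ) : Prop :=
  ∃ G : Finset (Finset X), Covers G F ∧ ∑ S ∈ G, p ^ S.card ≤ 1 / 2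

/-- `g : 2^X → [0,1]` is a fractional cover of `F`. -/
def IsFracCover (g : Finset X → ℝ) (F : Finset (Finset X)) : Prop :=
  (∀ S, 0 ≤ g S ∧ g S ≤ 1) ∧ ∀ H ∈ F, 1 ≤ ∑ S ∈ H.powerset, g S

/-- Some fractional cover `g` of `F` has cost `∑_S g(S) p^|S| ≤ 1/2`. -/
def IsFracSmall (F : Finset (Finset X)) (p : ℝ) : Prop :=
  ∃ g : Finset X → ℝ, IsFracCover g F ∧ ∑ S : Finset X, g S * p ^ S.card ≤ 1 / 2

/-- The expectation threshold `q(F)`. -/
noncomputable def expThreshold (F : Finset (Finset X)) : ℝ :=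
  sSup {p : ℝ | p ∈ Set.Icc (0 : ℝ) 1 ∧ IsSmall F p}

/-- The fractional expectation threshold `q_f(F)`. -/
noncomputable def fracExpThreshold (F : Finset (Finset X)) : ℝ :=
  sSup {p : ℝ | p ∈ Set.Icc (0 : ℝ) 1 ∧ IsFracSmall F p}

end Vale.Agent.P034
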