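import Mathlib
import Vale.Agent.P034.Defs
import Vale.Agent.P034.Count

/-!
The comparison of the fractional and the integral expectation thresholds.
-/

namespace Vale.Agent.P034

open Finset

set_option linter.unusedSectionVars false

variable {X : Type} [Fintype X] [DecidableEq X]

/-- level functions -/
def omg (X : Type) [Fintype X] [DecidableEq X] (L : ℕ) : Finset (X → ℕ) :=
  Fintype.piFinset (fun _ : X => range (L + 1))

lemma mem_omg {L : ℕ} {τ : X → ℕ} : τ ∈ omg X L ↔ ∀ x, τ x ≤ L := by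
  simp [omg, Fintype.mem_piFinset, Nat.lt_succ_iff]

lemma sum_omg (L : ℕ) (f : X → ℕ → ℝ) :
    ∑ τ ∈ omg X L, ∏ x, f x (τ x) = ∏ x, ∑ l ∈ range (L + 1), f x l :=
  (Finset.prod_univ_sum (fun _ : X => range (L + 1)) f).symm

/-- the probability of the bad level functions is small when `F` has no cheap cover -/
lemma bad_small {w : Finset X → X → ℝ} (hw : ∀ H x, 0 ≤ w H x) {F : Finset (Finset X)} {L : ℕ}
    {pr : ℕ → ℝ} {q : ℝ} (hq : 0 ≤ q) (hpr0 : ∀ i ≤ L, 0 ≤ pr i)
    (hpr1 : ∑ l ∈ range (L + 1), pr l = 1)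
    (hpq : ∀ i < L, q ≤ pr i * ((1 / 8 : ℝ) ^ i / 120))
    (hns : ¬ IsSmall F q) [DecidablePred (Good w F L)] :
    ∑ τ ∈ (omg X L).filter (fun τ => ¬ Good w F L τ), ∏ x, pr (τ x) ≤ 4 / 9 := by
  classical
  set B := (omg X L).filter (fun τ => ¬ Good w F L τ) with hB
  have hP0 : ∀ τ ∈ omg X L, 0 ≤ ∏ x, pr (τ x) := fun τ hτ =>
    Finset.prod_nonneg (fun x _ => hpr0 _ (mem_omg.1 hτ x))
  have h1 : ∀ τ ∈ B, (1 / 2 : ℝ) ≤
      ∑ τ' ∈ (omg X L).filter (fun τ' => Rel w F L τ τ'), q ^ (dd τ τ').card := by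
    intro τ hτ
    have hτ' := mem_omg.1 (mem_filter.1 hτ).1
    have hcov : Covers (((omg X L).filter (fun τ' => Rel w F L τ τ')).image (dd τ)) F := by
      intro S hS
      obtain ⟨τ', hr, hsub⟩ := exists_rel hw hτ' hS
      exact ⟨dd τ τ', mem_image.2 ⟨τ', mem_filter.2
        ⟨mem_omg.2 (fun x => (rel_le hr x).trans (hτ' x)), hr⟩, rfl⟩, hsub⟩
    have h2 : (1 / 2 : ℝ) ≤
        ∑ S ∈ ((omg X L).filter (fun τ' => Rel w F L τ τ')).image (dd τ), q ^ S.card := by
      by_contra h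
      exact hns ⟨_, hcov, (not_le.1 h).le⟩
    exact h2.trans (Finset.sum_image_le_of_nonneg (fun S _ => pow_nonneg hq _))
  have h2 : (∑ τ ∈ B, ∏ x, pr (τ x)) * (1 / 2) ≤
      ∑ τ ∈ B, ∑ τ' ∈ omg X L,
        if Rel w F L τ τ' then (∏ x, pr (τ x)) * q ^ (dd τ τ').card else 0 := by
    rw [Finset.sum_mul]
    refine Finset.sum_le_sum (fun τ hτ => ?_)
    rw [← Finset.sum_filter, ← Finset.mul_sum]
    exact mul_le_mul_of_nonneg_left (h1 τ hτ) (hP0 τ (mem_filter.1 hτ).1)
  rw [Finset.sum_comm] at h2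
  have h3 : ∀ τ' ∈ omg X L, (∑ τ ∈ B,
        if Rel w F L τ τ' then (∏ x, pr (τ x)) * q ^ (dd τ τ').card else 0) ≤
      (∏ x, pr (τ' x)) * (2 / 9) := by
    intro τ' hτ'
    rw [← Finset.sum_filter]
    set A := B.filter (fun τ => Rel w F L τ τ') with hA
    set C := A.image (fun τ => dd τ τ') with hC
    have hlev : ∀ T ∈ C, ∀ x ∈ T, τ' x < L := by
      intro T hT x hx
      obtain ⟨τ, hτ, rfl⟩ := mem_image.1 hT
      exact lt_of_lt_of_le (mem_dd.1 hx) (mem_omg.1 (mem_filter.1 (mem_filter.1 hτ).1).1 x)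
    have hcount := count_fragments (L := L) τ' C
      (by
        intro T hT
        obtain ⟨τ, hτ, rfl⟩ := mem_image.1 hT
        exact rel_nonempty (mem_filter.1 hτ).2 (mem_filter.1 (mem_filter.1 hτ).1).2)
      hlev
      (by
        intro s
        obtain ⟨V, hV, hVT⟩ := decode (F := F) (L := L) hw τ' s
        refine ⟨V, hV, fun T hT hs x hx => ?_⟩
        have hxL := hlev T hT x hx
        obtain ⟨τ, hτ, rfl⟩ := mem_image.1 hT
        refine hVT τ (mem_filter.1 hτ).2 (fun i hi => ?_) (τ' x) hxL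
          (mem_dl.2 ⟨mem_dd.1 hx, le_rfl⟩)
        rw [hs i hi]
        congr 1
        ext z
        simp only [mem_filter, mem_dd, mem_dl])
    rw [← Finset.sum_fiberwise_of_maps_to (s := A) (t := C) (g := fun τ => dd τ τ')
      (fun τ hτ => mem_image_of_mem _ hτ)]
    refine le_trans ?_ (mul_le_mul_of_nonneg_left hcount (hP0 τ' hτ'))
    rw [Finset.mul_sum]
    refine Finset.sum_le_sum (fun T hT => ?_)
    have h4 : ∑ τ ∈ A.filter (fun τ => dd τ τ' = T), (∏ x, pr (τ x)) * q ^ (dd τ τ').card ≤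
        ∑ τ ∈ omg X L, ∏ x, (pr (τ x) * if x ∈ T then q else if τ x = τ' x then 1 else 0) := by
      have h5 : ∀ τ ∈ A.filter (fun τ => dd τ τ' = T), (∏ x, pr (τ x)) * q ^ (dd τ τ').card =
          ∏ x, (pr (τ x) * if x ∈ T then q else if τ x = τ' x then 1 else 0) := by
        intro τ hτ
        obtain ⟨hτA, hT'⟩ := mem_filter.1 hτ
        rw [Finset.prod_mul_distrib, hT']
        congr 1
        have h6 : ∀ x, (if x ∈ T then q else if τ x = τ' x then (1 : ℝ) else 0) =
            if x ∈ T then q else 1 := by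
          intro x
          by_cases hx : x ∈ T
          · simp only [hx, if_true]
          · have h7 : τ x = τ' x := by
              rw [← hT', mem_dd] at hx
              exact le_antisymm (not_lt.1 hx) (rel_le (mem_filter.1 hτA).2 x)
            simp only [hx, h7, if_true, if_false]
        simp only [h6]
        rw [Finset.prod_ite_mem, Finset.univ_inter, Finset.prod_const]
      rw [Finset.sum_congr rfl h5]
      refine Finset.sum_le_sum_of_subset_of_nonneg (fun τ hτ => ?_) (fun τ hτ _ => ?_)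
      · exact (mem_filter.1 (mem_filter.1 (mem_filter.1 hτ).1).1).1
      · refine Finset.prod_nonneg (fun x _ => mul_nonneg (hpr0 _ (mem_omg.1 hτ x)) ?_)
        split_ifs <;> linarith
    refine h4.trans ?_
    rw [sum_omg L (fun x l => pr l * if x ∈ T then q else if l = τ' x then 1 else 0)]
    have h8 : ∏ x ∈ T, ((1 / 8 : ℝ) ^ (τ' x) / 120) =
        ∏ x, if x ∈ T then ((1 / 8 : ℝ) ^ (τ' x) / 120) else 1 := by
      rw [Finset.prod_ite_mem, Finset.univ_inter]
    rw [h8, ← Finset.prod_mul_distrib]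
    have h9 : ∀ x, (∑ l ∈ range (L + 1), pr l * if x ∈ T then q else if l = τ' x then 1 else 0) =
        if x ∈ T then q else pr (τ' x) := by
      intro x
      by_cases hx : x ∈ T
      · simp only [hx, if_true]
        rw [← Finset.sum_mul, hpr1, one_mul]
      · simp only [hx, if_false, mul_ite, mul_one, mul_zero]
        rw [Finset.sum_ite_eq']
        simp [Nat.lt_succ_iff, mem_omg.1 hτ' x]
    refine Finset.prod_le_prod (fun x _ => ?_) (fun x _ => ?_)
    · rw [h9]
      split_ifs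
      · exact hq
      · exact hpr0 _ (mem_omg.1 hτ' x)
    · rw [h9]
      by_cases hx : x ∈ T
      · simp only [hx, if_true]
        exact hpq _ (hlev T hT x hx)
      · simp only [hx, if_false, mul_one, le_refl]
  have h4 := h2.trans (Finset.sum_le_sum h3)
  rw [← Finset.sum_mul, sum_omg L (fun _ l => pr l), hpr1, Finset.prod_const_one] at h4
  linarith

lemma level_le_sum (L k : ℕ) (hk : k ≤ L) :
    (k : ℝ) = ∑ i ∈ range L, if i < k then (1 : ℝ) else 0 := by
  rw [← Finset.sum_filter, Finset.sum_const, nsmul_eq_mul, mul_one]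
  have : (range L).filter (fun i => i < k) = range k := by
    ext i
    simp only [mem_filter, mem_range]
    omega
  rw [this, card_range]

/-- vertex marginals of the fractional cover restricted to `H` -/
noncomputable def marg (g : Finset X → ℝ) (H : Finset X) (x : X) : ℝ :=
  ∑ S ∈ H.powerset, if x ∈ S then g S else 0

/-- on a good level function the tilted weight is at least one -/
lemma good_large {g : Finset X → ℝ} {F : Finset (Finset X)} (hg : IsFracCover g F) {L : ℕ}
    {τ : X → ℕ} (hτ : ∀ x, τ x ≤ L) (hgood : Good (marg g) F L τ) :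
    1 ≤ ∑ S : Finset X, g S * ∏ x ∈ S, (256 * (1 / 16 : ℝ) ^ (τ x)) := by
  obtain ⟨H, hH, hlev⟩ := hgood
  set c := Real.log 16 with hc
  have hc0 : 0 ≤ c := Real.log_nonneg (by norm_num)
  have hexp : ∀ k : ℕ, 256 * (1 / 16 : ℝ) ^ k = Real.exp (c * (2 - k)) := by
    intro k
    have h16 : Real.exp c = 16 := Real.exp_log (by norm_num)
    rw [mul_sub, Real.exp_sub, mul_comm c 2, mul_comm c k, Real.exp_nat_mul]
    have : Real.exp (2 * c) = 256 := by
      have := Real.exp_nat_mul c 2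
      rw [h16] at this
      norm_num at this
      exact this
    rw [this, h16, one_div, inv_pow, div_eq_mul_inv]
  have h1 : ∑ x ∈ H, marg g H x * (τ x : ℝ) ≤ 2 * ∑ x ∈ H, marg g H x := by
    have h2 : ∑ x ∈ H, marg g H x * (τ x : ℝ) =
        ∑ i ∈ range L, ∑ x ∈ H.filter (fun x => i < τ x), marg g H x := by
      simp only [Finset.sum_filter]
      rw [Finset.sum_comm]
      refine Finset.sum_congr rfl (fun x _ => ?_)
      rw [level_le_sum L (τ x) (hτ x), Finset.mul_sum]
      refine Finset.sum_congr rfl (fun i _ => ?_)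
      split_ifs <;> simp
    rw [h2]
    refine (Finset.sum_le_sum (fun i hi => hlev i (mem_range.1 hi))).trans ?_
    rw [← Finset.sum_mul]
    refine mul_le_mul_of_nonneg_right (geom_half_le L) (Finset.sum_nonneg (fun x _ => ?_))
    refine Finset.sum_nonneg (fun S _ => ?_)
    split_ifs
    · exact (hg.1 S).1
    · exact le_rfl
  have h3 : ∑ S ∈ H.powerset, g S * ∑ x ∈ S, c * (2 - (τ x : ℝ)) =
      c * (2 * ∑ x ∈ H, marg g H x - ∑ x ∈ H, marg g H x * (τ x : ℝ)) := by
    rw [Finset.mul_sum, ← Finset.sum_sub_distrib, Finset.mul_sum]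
    have h4 : ∀ x ∈ H, c * (2 * marg g H x - marg g H x * (τ x : ℝ)) =
        ∑ S ∈ H.powerset, if x ∈ S then g S * (c * (2 - (τ x : ℝ))) else 0 := by
      intro x _
      have : c * (2 * marg g H x - marg g H x * (τ x : ℝ)) =
          marg g H x * (c * (2 - (τ x : ℝ))) := by ring
      rw [this, marg, Finset.sum_mul]
      refine Finset.sum_congr rfl (fun S _ => ?_)
      split_ifs <;> simp
    rw [Finset.sum_congr rfl h4, Finset.sum_comm]
    refine Finset.sum_congr rfl (fun S hS => ?_)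
    rw [Finset.sum_ite_mem, Finset.inter_eq_right.2 (mem_powerset.1 hS), Finset.mul_sum]
  have h5 : ∑ S ∈ H.powerset, g S * (1 + ∑ x ∈ S, c * (2 - (τ x : ℝ))) ≤
      ∑ S ∈ H.powerset, g S * ∏ x ∈ S, (256 * (1 / 16 : ℝ) ^ (τ x)) := by
    refine Finset.sum_le_sum (fun S _ => mul_le_mul_of_nonneg_left ?_ (hg.1 S).1)
    simp only [hexp]
    rw [← Real.exp_sum]
    linarith [Real.add_one_le_exp (∑ x ∈ S, c * (2 - (τ x : ℝ)))]
  have h6 : ∑ S ∈ H.powerset, g S * ∏ x ∈ S, (256 * (1 / 16 : ℝ) ^ (τ x)) ≤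
      ∑ S : Finset X, g S * ∏ x ∈ S, (256 * (1 / 16 : ℝ) ^ (τ x)) :=
    Finset.sum_le_sum_of_subset_of_nonneg (Finset.subset_univ _) (fun S _ _ =>
      mul_nonneg (hg.1 S).1 (Finset.prod_nonneg (fun x _ => by positivity)))
  simp only [mul_add, mul_one] at h5
  rw [Finset.sum_add_distrib, h3] at h5
  have h7 := hg.2 H hH
  have h8 : 0 ≤ c * (2 * ∑ x ∈ H, marg g H x - ∑ x ∈ H, marg g H x * (τ x : ℝ)) :=
    mul_nonneg hc0 (by linarith)
  linarith

lemma exists_levels {q : ℝ} (hq : 0 < q) :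
    ∃ (L : ℕ) (pr : ℕ → ℝ), (∀ i ≤ L, 0 ≤ pr i) ∧ ∑ l ∈ range (L + 1), pr l = 1 ∧
      (∀ i < L, pr i = 120 * q * 8 ^ i) ∧ ∀ i ≤ L, pr i ≤ 120 * q * 8 ^ i := by
  classical
  have hex : ∃ L : ℕ, 1 ≤ ∑ l ∈ range (L + 1), 120 * q * (8 : ℝ) ^ l := by
    obtain ⟨n, hn⟩ := pow_unbounded_of_one_lt (1 / (120 * q)) (by norm_num : (1 : ℝ) < 8)
    refine ⟨n, le_trans ?_ (Finset.single_le_sum (f := fun l => 120 * q * (8 : ℝ) ^ l)
      (fun l _ => by positivity) (mem_range.2 (Nat.lt_succ_self n)))⟩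
    rw [div_lt_iff₀ (by positivity)] at hn
    linarith
  set L := Nat.find hex with hL
  have h1 : 1 ≤ ∑ l ∈ range (L + 1), 120 * q * (8 : ℝ) ^ l := Nat.find_spec hex
  have h2 : ∑ l ∈ range L, 120 * q * (8 : ℝ) ^ l ≤ 1 := by
    rcases Nat.eq_zero_or_pos L with h0 | h0
    · rw [h0]; simp
    · have := Nat.find_min hex (m := L - 1) (by omega)
      rw [show L - 1 + 1 = L by omega] at this
      exact (not_le.1 this).le
  rw [Finset.sum_range_succ] at h1
  refine ⟨L, fun i => if i < L then 120 * q * 8 ^ i else 1 - ∑ l ∈ range L, 120 * q * (8 : ℝ) ^ l,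
    fun i _ => ?_, ?_, fun i hi => by simp only [hi, if_true], fun i hi => ?_⟩
  · dsimp only
    split_ifs
    · positivity
    · linarith
  · rw [Finset.sum_range_succ, Finset.sum_congr rfl (g := fun l => 120 * q * (8 : ℝ) ^ l)
      (fun l hl => by simp only [mem_range.1 hl, if_true])]
    simp
  · dsimp only
    split_ifs with h
    · exact le_rfl
    · have : i = L := by omega
      rw [this]
      linarith

/-- A family with a cheap fractional cover at `p` has a cheap cover at `p / 61440`. -/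
theorem small_of_fracSmall {F : Finset (Finset X)} {p : ℝ} (hp : 0 < p) (h : IsFracSmall F p) :
    IsSmall F (p / 61440) := by
  classical
  obtain ⟨g, hg, hcost⟩ := h
  by_contra hns
  set q := p / 61440 with hq
  have hq0 : 0 < q := by positivity
  obtain ⟨L, pr, hpr0, hpr1, hpr2, hpr3⟩ := exists_levels hq0
  have hw : ∀ H x, 0 ≤ marg g H x := by
    intro H x
    refine Finset.sum_nonneg (fun S _ => ?_)
    split_ifs
    · exact (hg.1 S).1
    · exact le_rfl
  have hbad := bad_small (L := L) hw hq0.le hpr0 hpr1 (by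
    intro i hi
    rw [hpr2 i hi]
    have : (8 : ℝ) ^ i * (1 / 8 : ℝ) ^ i = 1 := by rw [← mul_pow]; norm_num
    refine le_of_eq ?_
    calc q = q * ((8 : ℝ) ^ i * (1 / 8 : ℝ) ^ i) := by rw [this, mul_one]
      _ = _ := by ring) hns
  have hP0 : ∀ τ ∈ omg X L, 0 ≤ ∏ x, pr (τ x) := fun τ hτ =>
    Finset.prod_nonneg (fun x _ => hpr0 _ (mem_omg.1 hτ x))
  have htot : ∑ τ ∈ omg X L, ∏ x, pr (τ x) = 1 := by
    rw [sum_omg L (fun _ l => pr l), hpr1, Finset.prod_const_one]
  set a : ℝ := ∑ l ∈ range (L + 1), pr l * (256 * (1 / 16 : ℝ) ^ l) with ha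
  have ha0 : 0 ≤ a := Finset.sum_nonneg (fun l hl =>
    mul_nonneg (hpr0 l (Nat.lt_succ_iff.1 (mem_range.1 hl))) (by positivity))
  have hap : a ≤ p := by
    have h1 : a ≤ ∑ l ∈ range (L + 1), (30720 * q) * (1 / 2 : ℝ) ^ l := by
      refine Finset.sum_le_sum (fun l hl => ?_)
      refine (mul_le_mul_of_nonneg_right (hpr3 l (Nat.lt_succ_iff.1 (mem_range.1 hl)))
        (by positivity)).trans (le_of_eq ?_)
      have : (1 / 2 : ℝ) ^ l = 8 ^ l * (1 / 16 : ℝ) ^ l := by rw [← mul_pow]; norm_num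
      rw [this]; ring
    rw [← Finset.mul_sum] at h1
    have h2 := geom_half_le (L + 1)
    have h3 : p = 61440 * q := by rw [hq]; ring
    nlinarith
  have hfirst : ∑ τ ∈ omg X L, (∏ x, pr (τ x)) *
      ∑ S : Finset X, g S * ∏ x ∈ S, (256 * (1 / 16 : ℝ) ^ (τ x)) ≤ 1 / 2 := by
    simp only [Finset.mul_sum]
    rw [Finset.sum_comm]
    refine le_trans (Finset.sum_le_sum (fun S _ => ?_)) hcost
    have h1 : ∀ τ : X → ℕ, (∏ x, pr (τ x)) * (g S * ∏ x ∈ S, (256 * (1 / 16 : ℝ) ^ (τ x))) =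
        g S * ∏ x, (pr (τ x) * if x ∈ S then 256 * (1 / 16 : ℝ) ^ (τ x) else 1) := by
      intro τ
      rw [Finset.prod_mul_distrib (s := univ), Finset.prod_ite_mem, Finset.univ_inter]
      ring
    simp only [h1]
    rw [← Finset.mul_sum,
      sum_omg L (fun x l => pr l * if x ∈ S then 256 * (1 / 16 : ℝ) ^ l else 1)]
    refine mul_le_mul_of_nonneg_left ?_ (hg.1 S).1
    have h2 : ∀ x, (∑ l ∈ range (L + 1), pr l * if x ∈ S then 256 * (1 / 16 : ℝ) ^ l else 1) =
        if x ∈ S then a else 1 := by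
      intro x
      by_cases hx : x ∈ S
      · simp only [hx, if_true, ha]
      · simp only [hx, if_false, mul_one, hpr1]
    simp only [h2]
    rw [Finset.prod_ite_mem, Finset.univ_inter, Finset.prod_const]
    exact pow_le_pow_left₀ ha0 hap _
  have hgood : ∑ τ ∈ (omg X L).filter (fun τ => Good (marg g) F L τ), ∏ x, pr (τ x) ≤ 1 / 2 := by
    refine le_trans ?_ hfirst
    refine le_trans (Finset.sum_le_sum (fun τ hτ => ?_))
      (Finset.sum_le_sum_of_subset_of_nonneg (Finset.filter_subset (Good (marg g) F L) _)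
        (fun τ hτ _ => mul_nonneg (hP0 τ hτ) (Finset.sum_nonneg (fun S _ =>
          mul_nonneg (hg.1 S).1 (Finset.prod_nonneg (fun x _ => by positivity))))))
    obtain ⟨h1, h2⟩ := mem_filter.1 hτ
    exact le_mul_of_one_le_right (hP0 τ h1) (good_large hg (mem_omg.1 h1) h2)
  have hsplit := Finset.sum_filter_add_sum_filter_not (omg X L) (fun τ => Good (marg g) F L τ)
    (fun τ => ∏ x, pr (τ x))
  linarith

lemma isSmall_zero {F : Finset (Finset X)} (h0 : ∅ ∉ F) : IsSmall F 0 := by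
  refine ⟨F, fun H hH => ⟨H, hH, subset_rfl⟩, ?_⟩
  rw [Finset.sum_eq_zero]
  · norm_num
  · intro S hS
    refine zero_pow (fun h => h0 ?_)
    rwa [Finset.card_eq_zero.1 h] at hS

theorem frac_le (F : Finset (Finset X)) (h0 : ∅ ∉ F) :
    fracExpThreshold F ≤ 61440 * expThreshold F := by
  have hbdd : BddAbove {p : ℝ | p ∈ Set.Icc (0 : ℝ) 1 ∧ IsSmall F p} :=
    ⟨1, fun p hp => hp.1.2⟩
  have hq0 : 0 ≤ expThreshold F := le_csSup hbdd ⟨⟨le_rfl, zero_le_one⟩, isSmall_zero h0⟩
  refine Real.sSup_le (fun p hp => ?_) (by positivity)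
  rcases hp.1.1.eq_or_lt with h | h
  · rw [← h]; positivity
  · have h1 : p / 61440 ≤ expThreshold F :=
      le_csSup hbdd ⟨⟨by positivity, by linarith [hp.1.2]⟩, small_of_fracSmall h hp.2⟩
    linarith

end Vale.Agent.P034
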